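import Vale.Agent.Lib.P335_helper14.AvgApi

/-!
P335 (helper21): abstract transfer of class averages along a pair of maps `(π, Φ) : X → W × Y`.
`π x` is the frozen part of the state, `Φ x` the part that is resampled.
-/

namespace P335h21

open Finset P335h14

set_option linter.unusedSectionVars false

variable {X Y W : Type*} [Fintype X] [DecidableEq X] [Fintype Y] [DecidableEq Y] [DecidableEq W]

/-- push `f` forward to `Y` along `Φ`, on the fibre `π = w` (zero off the image) -/
def lift (π : X → W) (Φ : X → Y) (f : X → ℝ) (w : W) (y : Y) : ℝ :=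
  ∑ x ∈ univ.filter (fun x => π x = w ∧ Φ x = y), f x

theorem lift_apply {π : X → W} {Φ : X → Y} (inj : ∀ x x', π x = π x' → Φ x = Φ x' → x = x')
    (f : X → ℝ) (x : X) : lift π Φ f (π x) (Φ x) = f x := by
  unfold lift
  have : univ.filter (fun x' => π x' = π x ∧ Φ x' = Φ x) = {x} := by
    ext x'
    simp only [mem_filter, mem_univ, true_and, mem_singleton]
    exact ⟨fun h => inj _ _ h.1 h.2, fun h => by rw [h]; exact ⟨rfl, rfl⟩⟩
  rw [this, Finset.sum_singleton]

theorem lift_off {π : X → W} {Φ : X → Y} (f : X → ℝ) {w : W} {y : Y}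
    (h : ∀ x, π x = w → Φ x ≠ y) : lift π Φ f w y = 0 := by
  unfold lift
  have : univ.filter (fun x => π x = w ∧ Φ x = y) = ∅ := by
    ext x
    simp only [mem_filter, mem_univ, true_and, notMem_empty, iff_false, not_and]
    exact h x
  rw [this, Finset.sum_empty]

/-- the hypotheses relating a relation `r` on `X` and a relation `s` on `Y` -/
structure Tr (r : X → X → Prop) (s : Y → Y → Prop) (π : X → W) (Φ : X → Y) : Prop where
  fwd : ∀ x x', r x x' → s (Φ x) (Φ x') ∧ π x = π x'
  bwd : ∀ x y', s (Φ x) y' → ∃ x', r x x' ∧ Φ x' = y'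

theorem off_of_rel {r : X → X → Prop} {s : Y → Y → Prop} {π : X → W} {Φ : X → Y}
    (hs : Equivalence s) (T : Tr r s π Φ) {w : W} {y y' : Y}
    (h : ∀ x, π x = w → Φ x ≠ y) (hyy : s y y') : ∀ x, π x = w → Φ x ≠ y' := by
  intro x hx hxy
  obtain ⟨x', hr', hx'⟩ := T.bwd x y (by rw [hxy]; exact hs.symm hyy)
  exact h x' (by rw [← (T.fwd x x' hr').2]; exact hx) hx'

theorem avg_lift {r : X → X → Prop} [DecidableRel r] {s : Y → Y → Prop} [DecidableRel s]
    {π : X → W} {Φ : X → Y} (inj : ∀ x x', π x = π x' → Φ x = Φ x' → x = x')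
    (T : Tr r s π Φ) (f : X → ℝ) (x : X) :
    avg s (lift π Φ f (π x)) (Φ x) = avg r f x := by
  unfold avg
  have himg : univ.filter (fun y => s (Φ x) y) = (univ.filter (fun x' => r x x')).image Φ := by
    ext y
    simp only [mem_filter, mem_univ, true_and, mem_image]
    constructor
    · intro hy
      obtain ⟨x', h1, h2⟩ := T.bwd x y hy
      exact ⟨x', h1, h2⟩
    · rintro ⟨x', h1, rfl⟩
      exact (T.fwd x x' h1).1
  have hinj : Set.InjOn Φ (univ.filter (fun x' => r x x') : Finset X) := by
    intro a ha b hb hab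
    simp only [coe_filter, mem_univ, true_and, Set.mem_ofPred_eq] at ha hb
    exact inj a b (by rw [← (T.fwd x a ha).2, ← (T.fwd x b hb).2]) hab
  rw [himg, Finset.sum_image hinj, Finset.card_image_of_injOn hinj]
  congr 1
  refine Finset.sum_congr rfl (fun x' hx' => ?_)
  simp only [mem_filter, mem_univ, true_and] at hx'
  rw [(T.fwd x x' hx').2]
  exact lift_apply inj f x'

theorem avg_lift_off {r : X → X → Prop} {s : Y → Y → Prop} [DecidableRel s]
    {π : X → W} {Φ : X → Y} (hs : Equivalence s) (T : Tr r s π Φ) (f : X → ℝ) {w : W} {y : Y}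
    (h : ∀ x, π x = w → Φ x ≠ y) : avg s (lift π Φ f w) y = 0 := by
  unfold avg
  rw [Finset.sum_eq_zero, zero_div]
  intro y' hy'
  simp only [mem_filter, mem_univ, true_and] at hy'
  exact lift_off f (off_of_rel hs T h hy')

/-- a double sum over `W × Y` of a function vanishing off the image is a sum over `X` -/
theorem sum_lift [Fintype W] {π : X → W} {Φ : X → Y}
    (inj : ∀ x x', π x = π x' → Φ x = Φ x' → x = x') (H : W → Y → ℝ)
    (hH : ∀ w y, (∀ x, π x = w → Φ x ≠ y) → H w y = 0) :
    ∑ w, ∑ y, H w y = ∑ x, H (π x) (Φ x) := by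
  rw [← Finset.sum_product' (s := univ) (t := univ) (f := H)]
  have hinj : Function.Injective (fun x => (π x, Φ x)) := by
    intro a b hab
    simp only [Prod.mk.injEq] at hab
    exact inj a b hab.1 hab.2
  have h1 : ∑ x, H (π x) (Φ x) = ∑ p ∈ univ.image (fun x => (π x, Φ x)), H p.1 p.2 := by
    rw [Finset.sum_image (fun a _ b _ hab => hinj hab)]
  rw [h1]
  symm
  apply Finset.sum_subset (Finset.subset_univ _)
  rintro ⟨w, y⟩ _ hp
  apply hH
  intro x hx hxy
  apply hp
  simp only [mem_image, mem_univ, true_and]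
  exact ⟨x, by rw [hx, hxy]⟩

end P335h21
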