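import Vale.Agent.Lib.P335_helper21.GLemmas
import Vale.Agent.Lib.P335_helper21.Transfer
import Vale.Agent.Lib.P335_helper14.RelApi
import Vale.Agent.Lib.P335_helper14.TwoRow

/-!
P335 (helper21): the two-vertex fibre of a graph is a two-row fibre of 0/1 matrices.
-/

namespace P335h21

open Finset P335h14

set_option linter.unusedSectionVars false

variable {V : Type*} [Fintype V] [DecidableEq V]

/-- neighbours of `a` outside `{u,v}` -/
def row2 (u v : V) (x : Finset (Sym2 V)) (a : V) : Finset V :=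
  univ.filter (fun c => c ≠ u ∧ c ≠ v ∧ s(a, c) ∈ x)

/-- the two rows -/
def Phi2 (u v : V) (x : Finset (Sym2 V)) : Mat (Fin 2) V :=
  fun i => if i = 0 then row2 u v x u else row2 u v x v

/-- the resampled slots -/
def touch' (u v : V) : Finset (Sym2 V) := (touch u v).erase s(u, v)

/-- the frozen part -/
def pi2 (u v : V) (x : Finset (Sym2 V)) : Finset (Sym2 V) := x \ touch' u v

theorem mem_row2 {u v : V} {x : Finset (Sym2 V)} {a c : V} :
    c ∈ row2 u v x a ↔ c ≠ u ∧ c ≠ v ∧ s(a, c) ∈ x := by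
  unfold row2; simp

theorem card_row2 (u v : V) (x : Finset (Sym2 V)) (a : V) :
    (row2 u v x a).card = ∑ c ∈ univ.filter (fun c => c ≠ u ∧ c ≠ v), sl x a c := by
  unfold row2 sl
  rw [← Finset.card_filter, Finset.filter_filter]
  congr 1
  ext c
  simp only [mem_filter, mem_univ, true_and]
  tauto

theorem ind_row2 (u v : V) (x : Finset (Sym2 V)) (a c : V) :
    ind (row2 u v x a) c = if c ≠ u ∧ c ≠ v then sl x a c else 0 := by
  unfold ind sl
  by_cases h1 : c ≠ u ∧ c ≠ v
  · by_cases h2 : s(a, c) ∈ x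
    · rw [if_pos (mem_row2.2 ⟨h1.1, h1.2, h2⟩), if_pos h1, if_pos h2]
    · rw [if_neg (fun h => h2 (mem_row2.1 h).2.2), if_pos h1, if_neg h2]
  · rw [if_neg (fun h => h1 ⟨(mem_row2.1 h).1, (mem_row2.1 h).2.1⟩), if_neg h1]

theorem touch'_cases {u v : V} {e : Sym2 V} (he : e ∈ touch' u v) :
    ∃ c, c ≠ u ∧ c ≠ v ∧ (e = s(u, c) ∨ e = s(v, c)) := by
  induction e with
  | _ a b =>
    unfold touch' at he
    rw [mem_erase, mk_mem_touch] at he
    obtain ⟨hne, hab, h⟩ := he
    rcases h with rfl | rfl | rfl | rfl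
    · refine ⟨b, fun h => hab h.symm, fun h => hne (by rw [h]), Or.inl rfl⟩
    · refine ⟨a, hab, fun h => hne (by rw [h, Sym2.eq_swap]), Or.inl Sym2.eq_swap⟩
    · refine ⟨b, fun h => hne (by rw [h, Sym2.eq_swap]), fun h => hab h.symm, Or.inr rfl⟩
    · refine ⟨a, fun h => hne (by rw [h]), hab, Or.inr Sym2.eq_swap⟩

theorem mk_left_mem_touch' {u v c : V} (hcu : c ≠ u) (hcv : c ≠ v) : s(u, c) ∈ touch' u v := by
  unfold touch'
  rw [mem_erase, mk_mem_touch]
  refine ⟨fun h => hcv (Sym2.congr_right.1 h), fun h => hcu h.symm, Or.inl rfl⟩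

theorem mk_right_mem_touch' {u v c : V} (hcu : c ≠ u) (hcv : c ≠ v) : s(v, c) ∈ touch' u v := by
  unfold touch'
  rw [mem_erase, mk_mem_touch]
  refine ⟨fun h => ?_, fun h => hcv h.symm, Or.inr (Or.inr (Or.inl rfl))⟩
  rw [Sym2.eq_swap (a := u)] at h
  exact hcu (Sym2.congr_right.1 h)

theorem inj2 (u v : V) (x x' : Finset (Sym2 V)) (h1 : pi2 u v x = pi2 u v x')
    (h2 : Phi2 u v x = Phi2 u v x') : x = x' := by
  ext e
  by_cases he : e ∈ touch' u v
  · obtain ⟨c, hcu, hcv, rfl | rfl⟩ := touch'_cases he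
    · have h3 := congrFun h2 0
      simp only [Phi2, if_true] at h3
      have h4 : c ∈ row2 u v x u ↔ c ∈ row2 u v x' u := by rw [h3]
      simp only [mem_row2, hcu, hcv, ne_eq, not_false_eq_true, true_and] at h4
      exact h4
    · have h3 := congrFun h2 1
      simp only [Phi2, one_ne_zero, if_false] at h3
      have h4 : c ∈ row2 u v x v ↔ c ∈ row2 u v x' v := by rw [h3]
      simp only [mem_row2, hcu, hcv, ne_eq, not_false_eq_true, true_and] at h4
      exact h4
  · have h3 : e ∈ pi2 u v x ↔ e ∈ pi2 u v x' := by rw [h1]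
    simp only [pi2, mem_sdiff, he, not_false_eq_true, and_true] at h3
    exact h3

theorem fin2_01 : (0 : Fin 2) ≠ 1 := by decide

theorem fwd2 {u v : V} (huv : u ≠ v) (x x' : Finset (Sym2 V)) (h : GRel (touch u v) x x') :
    Rel {(0 : Fin 2), 1} (Phi2 u v x) (Phi2 u v x') ∧ pi2 u v x = pi2 u v x' := by
  obtain ⟨he, hA, hB⟩ := h.pair_aux huv
  constructor
  · rw [rel_pair_iff fin2_01]
    refine ⟨?_, ?_, ?_, ?_⟩
    · intro a h0 h1
      exfalso
      fin_cases a
      · exact h0 rfl
      · exact h1 rfl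
    · simp only [Phi2, if_true]
      rw [card_row2, card_row2, hA]
    · simp only [Phi2, one_ne_zero, if_false]
      rw [card_row2, card_row2, hB]
    · intro c
      simp only [Phi2, if_true, one_ne_zero, if_false]
      rw [ind_row2, ind_row2, ind_row2, ind_row2]
      by_cases hc : c ≠ u ∧ c ≠ v
      · simp only [if_pos hc]
        exact h.col huv hc.1 hc.2
      · simp only [if_neg hc]
  · ext e
    simp only [pi2, mem_sdiff]
    by_cases he' : e ∈ touch' u v
    · simp [he']
    · simp only [he', not_false_eq_true, and_true]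
      by_cases h2 : e ∈ touch u v
      · have : e = s(u, v) := by
          by_contra h3
          exact he' (by unfold touch'; exact mem_erase.2 ⟨h3, h2⟩)
        rw [this]
        exact sl_eq_iff.1 he
      · exact h.mem_iff h2

/-- rebuild a state from the frozen part and two rows -/
def build2 (u v : V) (z : Finset (Sym2 V)) (M : Mat (Fin 2) V) : Finset (Sym2 V) :=
  z ∪ ((M 0).image (fun c => s(u, c)) ∪ (M 1).image (fun c => s(v, c)))

theorem mem_build2_left {u v : V} (huv : u ≠ v) {x : Finset (Sym2 V)} {M : Mat (Fin 2) V} {c : V}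
    (hcu : c ≠ u) (hcv : c ≠ v) : s(u, c) ∈ build2 u v (pi2 u v x) M ↔ c ∈ M 0 := by
  unfold build2 pi2
  simp only [mem_union, mem_sdiff, mem_image, mk_left_mem_touch' hcu hcv, not_true_eq_false,
    and_false, false_or]
  constructor
  · rintro (⟨a, ha, h⟩ | ⟨a, _, h⟩)
    · rw [Sym2.congr_right.1 h] at ha; exact ha
    · exfalso
      rw [Sym2.eq_iff] at h
      rcases h with ⟨h1, _⟩ | ⟨h1, _⟩
      · exact huv h1.symm
      · exact hcv h1.symm
  · intro h
    exact Or.inl ⟨c, h, rfl⟩

theorem mem_build2_right {u v : V} (huv : u ≠ v) {x : Finset (Sym2 V)} {M : Mat (Fin 2) V} {c : V}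
    (hcu : c ≠ u) (hcv : c ≠ v) : s(v, c) ∈ build2 u v (pi2 u v x) M ↔ c ∈ M 1 := by
  unfold build2 pi2
  simp only [mem_union, mem_sdiff, mem_image, mk_right_mem_touch' hcu hcv, not_true_eq_false,
    and_false, false_or]
  constructor
  · rintro (⟨a, _, h⟩ | ⟨a, ha, h⟩)
    · exfalso
      rw [Sym2.eq_iff] at h
      rcases h with ⟨h1, _⟩ | ⟨h1, _⟩
      · exact huv h1
      · exact hcu h1.symm
    · rw [Sym2.congr_right.1 h] at ha; exact ha
  · intro h
    exact Or.inr ⟨c, h, rfl⟩

theorem mem_build2_off {u v : V} {x : Finset (Sym2 V)} {M : Mat (Fin 2) V}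
    (hM : ∀ i, ∀ c ∈ M i, c ≠ u ∧ c ≠ v) {e : Sym2 V} (he : e ∉ touch' u v) :
    e ∈ build2 u v (pi2 u v x) M ↔ e ∈ x := by
  unfold build2 pi2
  simp only [mem_union, mem_sdiff, mem_image, he, not_false_eq_true, and_true]
  constructor
  · rintro (h | ⟨a, ha, rfl⟩ | ⟨a, ha, rfl⟩)
    · exact h
    · exact absurd (mk_left_mem_touch' (hM 0 a ha).1 (hM 0 a ha).2) he
    · exact absurd (mk_right_mem_touch' (hM 1 a ha).1 (hM 1 a ha).2) he
  · intro h; exact Or.inl h

theorem bwd2 {u v : V} (huv : u ≠ v) (x : Finset (Sym2 V)) (M : Mat (Fin 2) V)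
    (h : Rel {(0 : Fin 2), 1} (Phi2 u v x) M) :
    ∃ x', GRel (touch u v) x x' ∧ Phi2 u v x' = M := by
  rw [rel_pair_iff fin2_01] at h
  obtain ⟨_, hc0, hc1, hcol⟩ := h
  simp only [Phi2, if_true, one_ne_zero, if_false] at hc0 hc1 hcol
  -- the entries of `M` avoid the columns `u`, `v`
  have hM : ∀ i, ∀ c ∈ M i, c ≠ u ∧ c ≠ v := by
    intro i c hc
    by_contra hcon
    have h1 := hcol c
    rw [ind_row2, ind_row2, if_neg hcon, if_neg hcon] at h1
    have h2 : ind (M i) c = 1 := by unfold ind; rw [if_pos hc]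
    fin_cases i
    · simp only [Fin.zero_eta] at h2; omega
    · simp only [Fin.mk_one] at h2; omega
  set x' := build2 u v (pi2 u v x) M with hx'
  have hL : ∀ c, c ≠ u → c ≠ v → sl x' u c = ind (M 0) c := by
    intro c hcu hcv
    unfold sl ind
    simp only [hx', mem_build2_left huv hcu hcv]
  have hR : ∀ c, c ≠ u → c ≠ v → sl x' v c = ind (M 1) c := by
    intro c hcu hcv
    unfold sl ind
    simp only [hx', mem_build2_right huv hcu hcv]
  have hoff : ∀ a b, s(a, b) ∉ touch' u v → sl x' a b = sl x a b := by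
    intro a b hab
    exact sl_eq_iff.2 (mem_build2_off hM hab)
  have hcardM : ∀ i, (M i).card = ∑ c ∈ univ.filter (fun c => c ≠ u ∧ c ≠ v), ind (M i) c := by
    intro i
    unfold ind
    rw [← Finset.card_filter]
    congr 1
    ext c
    simp only [mem_filter, mem_univ, true_and]
    exact ⟨fun hc => ⟨hM i c hc, hc⟩, fun hc => hc.2⟩
  have huv' : s(u, v) ∉ touch' u v := by unfold touch'; simp
  have hdiag : ∀ a, s(a, a) ∉ touch' u v := by
    intro a h1
    unfold touch' at h1
    have := (mem_erase.1 h1).2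
    rw [mk_mem_touch] at this
    exact this.1 rfl
  refine ⟨x', ⟨?_, ?_⟩, ?_⟩
  · ext e
    simp only [mem_sdiff]
    by_cases he : e ∈ touch u v
    · simp [he]
    · simp only [he, not_false_eq_true, and_true]
      exact (mem_build2_off hM (fun h1 => he (mem_of_mem_erase h1))).symm
  · intro a
    rw [deg_eq_sum, deg_eq_sum, sum_split2 huv, sum_split2 huv]
    by_cases hau : a = u
    · subst hau
      rw [hoff a a (hdiag a), hoff a v huv']
      have : ∑ c ∈ univ.filter (fun c => c ≠ a ∧ c ≠ v), sl x' a c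
          = ∑ c ∈ univ.filter (fun c => c ≠ a ∧ c ≠ v), sl x a c := by
        rw [← card_row2 a v x a, hc0, hcardM 0]
        refine Finset.sum_congr rfl (fun c hc => ?_)
        simp only [mem_filter, mem_univ, true_and] at hc
        exact hL c hc.1 hc.2
      omega
    · by_cases hav : a = v
      · subst hav
        rw [hoff a a (hdiag a), hoff a u (by rw [Sym2.eq_swap]; exact huv')]
        have : ∑ c ∈ univ.filter (fun c => c ≠ u ∧ c ≠ a), sl x' a c
            = ∑ c ∈ univ.filter (fun c => c ≠ u ∧ c ≠ a), sl x a c := by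
          rw [← card_row2 u a x a, hc1, hcardM 1]
          refine Finset.sum_congr rfl (fun c hc => ?_)
          simp only [mem_filter, mem_univ, true_and] at hc
          exact hR c hc.1 hc.2
        omega
      · have h1 := hcol a
        rw [ind_row2, ind_row2, if_pos ⟨hau, hav⟩, if_pos ⟨hau, hav⟩] at h1
        rw [sl_comm x' a u, sl_comm x' a v, hL a hau hav, hR a hau hav, sl_comm x a u, sl_comm x a v]
        have : ∑ c ∈ univ.filter (fun c => c ≠ u ∧ c ≠ v), sl x' a c
            = ∑ c ∈ univ.filter (fun c => c ≠ u ∧ c ≠ v), sl x a c := by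
          refine Finset.sum_congr rfl (fun c hc => ?_)
          simp only [mem_filter, mem_univ, true_and] at hc
          apply hoff
          intro h2
          have h3 := mem_of_mem_erase h2
          rw [mk_mem_touch] at h3
          rcases h3.2 with h4 | h4 | h4 | h4
          · exact hau h4.symm
          · exact hc.1 h4.symm
          · exact hav h4.symm
          · exact hc.2 h4.symm
        omega
  · funext i
    fin_cases i
    · simp only [Phi2, Fin.zero_eta, if_true]
      ext c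
      rw [mem_row2]
      constructor
      · rintro ⟨h1, h2, h3⟩
        exact (mem_build2_left huv h1 h2).1 h3
      · intro hc
        exact ⟨(hM 0 c hc).1, (hM 0 c hc).2, (mem_build2_left huv (hM 0 c hc).1 (hM 0 c hc).2).2 hc⟩
    · simp only [Phi2, Fin.mk_one, one_ne_zero, if_false]
      ext c
      rw [mem_row2]
      constructor
      · rintro ⟨h1, h2, h3⟩
        exact (mem_build2_right huv h1 h2).1 h3
      · intro hc
        exact ⟨(hM 1 c hc).1, (hM 1 c hc).2, (mem_build2_right huv (hM 1 c hc).1 (hM 1 c hc).2).2 hc⟩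

theorem tr2 {u v : V} (huv : u ≠ v) :
    Tr (GRel (touch u v)) (Rel {(0 : Fin 2), 1}) (pi2 u v) (Phi2 u v) where
  fwd := fwd2 huv
  bwd := bwd2 huv

theorem swOK_iff {u v : V} (huv : u ≠ v) (x : Finset (Sym2 V)) (c c' : V) :
    SwOK (Phi2 u v x) 0 1 c c' ↔ GSwOK x u v c c' := by
  unfold SwOK GSwOK
  simp only [Phi2, if_true, one_ne_zero, if_false, mem_row2]
  constructor
  · rintro ⟨_, ⟨h1, h2, h3⟩, h4, ⟨h5, h6, h7⟩, h8⟩
    exact ⟨huv, h1, h2, h5, h6, h3, fun h => h4 ⟨h1, h2, h⟩, h7, fun h => h8 ⟨h5, h6, h⟩⟩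
  · rintro ⟨_, h1, h2, h5, h6, h3, h4, h7, h8⟩
    exact ⟨fin2_01, ⟨h1, h2, h3⟩, fun h => h4 h.2.2, ⟨h5, h6, h7⟩, fun h => h8 h.2.2⟩

theorem mem_gsw {x : Finset (Sym2 V)} {u v c c' : V} {e : Sym2 V} :
    e ∈ gsw x u v c c' ↔ e = s(u, c') ∨ e = s(v, c) ∨ (e ≠ s(v, c') ∧ e ≠ s(u, c) ∧ e ∈ x) := by
  unfold gsw
  simp only [mem_insert, mem_erase]

theorem pi2_gsw {u v : V} {x : Finset (Sym2 V)} {c c' : V} (h : GSwOK x u v c c') :
    pi2 u v (gsw x u v c c') = pi2 u v x := by
  obtain ⟨huv, h1, h2, h5, h6, h3, h4, h7, h8⟩ := h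
  ext e
  simp only [pi2, mem_sdiff, mem_gsw]
  by_cases he : e ∈ touch' u v
  · simp [he]
  · simp only [he, not_false_eq_true, and_true]
    constructor
    · rintro (rfl | rfl | h)
      · exact absurd (mk_left_mem_touch' h5 h6) he
      · exact absurd (mk_right_mem_touch' h1 h2) he
      · exact h.2.2
    · intro hx
      refine Or.inr (Or.inr ⟨?_, ?_, hx⟩)
      · rintro rfl; exact he (mk_right_mem_touch' h5 h6)
      · rintro rfl; exact he (mk_left_mem_touch' h1 h2)

theorem Phi2_gsw {u v : V} {x : Finset (Sym2 V)} {c c' : V} (h : GSwOK x u v c c') :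
    Phi2 u v (gsw x u v c c') = sw (Phi2 u v x) 0 1 c c' := by
  obtain ⟨huv, h1, h2, h5, h6, h3, h4, h7, h8⟩ := h
  funext i
  fin_cases i
  · simp only [sw, Phi2, Fin.zero_eta, if_true, one_ne_zero, if_false]
    rw [Function.update_of_ne fin2_01, Function.update_self]
    ext a
    simp only [mem_row2, mem_gsw, mem_insert, mem_erase]
    constructor
    · rintro ⟨ha1, ha2, h | h | ⟨_, h10, h11⟩⟩
      · exact Or.inl (Sym2.congr_right.1 h)
      · exfalso
        rw [Sym2.eq_iff] at h
        rcases h with ⟨h, _⟩ | ⟨_, h⟩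
        · exact huv h
        · exact ha2 h
      · exact Or.inr ⟨fun hac => h10 (by rw [hac]), ha1, ha2, h11⟩
    · rintro (rfl | ⟨hac, ha1, ha2, h11⟩)
      · exact ⟨h5, h6, Or.inl rfl⟩
      · refine ⟨ha1, ha2, Or.inr (Or.inr ⟨?_, ?_, h11⟩)⟩
        · intro h
          rw [Sym2.eq_iff] at h
          rcases h with ⟨h, _⟩ | ⟨_, h⟩
          · exact huv h
          · exact ha2 h
        · intro h; exact hac (Sym2.congr_right.1 h)
  · simp only [sw, Phi2, Fin.mk_one, one_ne_zero, if_false]
    rw [Function.update_self]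
    ext a
    simp only [mem_row2, mem_gsw, mem_insert, mem_erase]
    constructor
    · rintro ⟨ha1, ha2, h | h | ⟨h10, _, h11⟩⟩
      · exfalso
        rw [Sym2.eq_iff] at h
        rcases h with ⟨h, _⟩ | ⟨_, h⟩
        · exact huv h.symm
        · exact ha1 h
      · exact Or.inl (Sym2.congr_right.1 h)
      · exact Or.inr ⟨fun hac => h10 (by rw [hac]), ha1, ha2, h11⟩
    · rintro (rfl | ⟨hac, ha1, ha2, h11⟩)
      · exact ⟨h1, h2, Or.inr (Or.inl rfl)⟩
      · refine ⟨ha1, ha2, Or.inr (Or.inr ⟨?_, ?_, h11⟩)⟩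
        · intro h; exact hac (Sym2.congr_right.1 h)
        · intro h
          rw [Sym2.eq_iff] at h
          rcases h with ⟨h, _⟩ | ⟨_, h⟩
          · exact huv h.symm
          · exact ha1 h

/-- two_row for graphs -/
theorem g_two_row {u v : V} (huv : u ≠ v) (f : Finset (Sym2 V) → ℝ) :
    4 * ip (f - avg (GRel (touch u v)) f) (f - avg (GRel (touch u v)) f) ≤ gdir2 u v f := by
  have T := tr2 huv
  have hs : Equivalence (Rel (ι := Fin 2) (γ := V) {(0 : Fin 2), 1}) := Rel.equiv _
  have inj := inj2 u v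
  set F : Finset (Sym2 V) → Mat (Fin 2) V → ℝ := fun w => lift (pi2 u v) (Phi2 u v) f w with hF
  have key : ∀ w, 4 * ip (F w - avg (Rel {(0 : Fin 2), 1}) (F w)) (F w - avg (Rel {(0 : Fin 2), 1}) (F w))
      ≤ dir2 0 1 (F w) := fun w => two_row fin2_01 (F w)
  have hsum := Finset.sum_le_sum (fun w (_ : w ∈ (univ : Finset (Finset (Sym2 V)))) => key w)
  rw [← Finset.mul_sum] at hsum
  have hL : ∑ w, ip (F w - avg (Rel {(0 : Fin 2), 1}) (F w)) (F w - avg (Rel {(0 : Fin 2), 1}) (F w))
      = ip (f - avg (GRel (touch u v)) f) (f - avg (GRel (touch u v)) f) := by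
    unfold ip
    rw [sum_lift inj (fun w M => (F w - avg (Rel {(0 : Fin 2), 1}) (F w)) M
      * (F w - avg (Rel {(0 : Fin 2), 1}) (F w)) M)]
    · refine Finset.sum_congr rfl (fun x _ => ?_)
      simp only [Pi.sub_apply, hF]
      rw [lift_apply inj, avg_lift inj T]
    · intro w M hoff
      simp only [Pi.sub_apply, hF]
      rw [lift_off f hoff, avg_lift_off hs T f hoff]
      simp
  have hR : ∑ w, dir2 0 1 (F w) = gdir2 u v f := by
    unfold dir2 gdir2
    rw [sum_lift inj (fun w M => ∑ c, ∑ c', if SwOK M 0 1 c c' then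
      (F w (sw M 0 1 c c') - F w M) ^ 2 else 0)]
    · refine Finset.sum_congr rfl (fun x _ => ?_)
      refine Finset.sum_congr rfl (fun c _ => ?_)
      refine Finset.sum_congr rfl (fun c' _ => ?_)
      by_cases hok : GSwOK x u v c c'
      · rw [if_pos hok, if_pos ((swOK_iff huv x c c').2 hok)]
        simp only [hF]
        rw [lift_apply inj, ← Phi2_gsw hok]
        conv_lhs => rw [← pi2_gsw hok]
        rw [lift_apply inj]
      · rw [if_neg hok, if_neg (fun h => hok ((swOK_iff huv x c c').1 h))]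
    · intro w M hoff
      refine Finset.sum_eq_zero (fun c _ => Finset.sum_eq_zero (fun c' _ => ?_))
      split_ifs with hok
      · simp only [hF]
        rw [lift_off f hoff, lift_off f (off_of_rel hs T hoff (rel_sw hok))]
        simp
      · rfl
  rw [hL, hR] at hsum
  exact hsum

end P335h21
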