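import Vale.Agent.Lib.P335_helper21.GProto

namespace P335h21

open Finset P335h14

set_option linter.unusedSectionVars false

variable {V : Type*} [Fintype V] [DecidableEq V]

/-- indicator of a slot -/
def sl (x : Finset (Sym2 V)) (a b : V) : ℕ := if s(a, b) ∈ x then 1 else 0

theorem sl_comm (x : Finset (Sym2 V)) (a b : V) : sl x a b = sl x b a := by
  unfold sl; rw [Sym2.eq_swap]

theorem sl_le_one (x : Finset (Sym2 V)) (a b : V) : sl x a b ≤ 1 := by
  unfold sl; split_ifs <;> omega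

theorem sl_eq_iff {x y : Finset (Sym2 V)} {a b : V} : sl x a b = sl y a b ↔ (s(a, b) ∈ x ↔ s(a, b) ∈ y) := by
  unfold sl
  by_cases h1 : s(a, b) ∈ x <;> by_cases h2 : s(a, b) ∈ y <;> simp [h1, h2]

theorem deg_eq_sum (x : Finset (Sym2 V)) (v : V) : deg x v = ∑ c, sl x v c := by
  unfold deg sl
  rw [← Finset.card_filter]
  have : x.filter (fun e => v ∈ e) = (univ.filter (fun c => s(v, c) ∈ x)).image (fun c => s(v, c)) := by
    ext e
    simp only [mem_filter, mem_image, mem_univ, true_and]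
    constructor
    · rintro ⟨he, hv⟩
      obtain ⟨c, rfl⟩ := Sym2.mem_iff_exists.1 hv
      exact ⟨c, he, rfl⟩
    · rintro ⟨c, hc, rfl⟩
      exact ⟨hc, Sym2.mem_mk_left v c⟩
  rw [this, Finset.card_image_of_injective]
  intro a b hab
  exact Sym2.congr_right.1 hab

theorem mk_mem_touch {u v a b : V} :
    s(a, b) ∈ touch u v ↔ a ≠ b ∧ (u = a ∨ u = b ∨ v = a ∨ v = b) := by
  unfold touch
  simp only [mem_filter, mem_univ, true_and, Sym2.mk_isDiag_iff, Sym2.mem_iff]
  tauto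

theorem GRel.equiv (A : Finset (Sym2 V)) : Equivalence (GRel A) where
  refl := fun x => ⟨rfl, fun _ => rfl⟩
  symm := fun h => ⟨h.1.symm, fun v => (h.2 v).symm⟩
  trans := fun h1 h2 => ⟨h1.1.trans h2.1, fun v => (h1.2 v).trans (h2.2 v)⟩

theorem GRel.mem_iff {A x y : Finset (Sym2 V)} (h : GRel A x y) {e : Sym2 V} (he : e ∉ A) :
    e ∈ x ↔ e ∈ y := by
  have h1 : e ∈ x \ A ↔ e ∈ y \ A := by rw [h.1]
  simp only [mem_sdiff, he, not_false_eq_true, and_true] at h1
  exact h1

theorem GRel.sl_eq {A x y : Finset (Sym2 V)} (h : GRel A x y) {a b : V} (he : s(a, b) ∉ A) :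
    sl x a b = sl y a b := sl_eq_iff.2 (h.mem_iff he)

theorem GRel.mono {A B x y : Finset (Sym2 V)} (hAB : A ⊆ B) (h : GRel A x y) : GRel B x y := by
  refine ⟨?_, h.2⟩
  ext e
  simp only [mem_sdiff]
  constructor
  · rintro ⟨h1, h2⟩
    exact ⟨(h.mem_iff (fun h3 => h2 (hAB h3))).1 h1, h2⟩
  · rintro ⟨h1, h2⟩
    exact ⟨(h.mem_iff (fun h3 => h2 (hAB h3))).2 h1, h2⟩

/-- splitting a sum over `V` at two distinct points -/
theorem sum_split2 {u v : V} (huv : u ≠ v) (g : V → ℕ) :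
    ∑ c, g c = g u + g v + ∑ c ∈ univ.filter (fun c => c ≠ u ∧ c ≠ v), g c := by
  have h1 : (univ : Finset V) = insert u (insert v (univ.filter (fun c => c ≠ u ∧ c ≠ v))) := by
    ext c
    simp only [mem_univ, mem_insert, mem_filter, true_and, true_iff]
    tauto
  conv_lhs => rw [h1]
  rw [Finset.sum_insert, Finset.sum_insert]
  · ring
  · simp
  · simp [huv]

section pair
variable {u v : V} {x y : Finset (Sym2 V)}

/-- column sums of the two rows `u,v` are invariant -/
theorem GRel.col (huv : u ≠ v) (h : GRel (touch u v) x y) {c : V} (hcu : c ≠ u) (hcv : c ≠ v) :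
    sl x u c + sl x v c = sl y u c + sl y v c := by
  have h1 := h.2 c
  rw [deg_eq_sum, deg_eq_sum, sum_split2 huv, sum_split2 huv] at h1
  have h2 : ∑ a ∈ univ.filter (fun a => a ≠ u ∧ a ≠ v), sl x c a
      = ∑ a ∈ univ.filter (fun a => a ≠ u ∧ a ≠ v), sl y c a := by
    refine Finset.sum_congr rfl (fun a ha => ?_)
    simp only [mem_filter, mem_univ, true_and] at ha
    apply h.sl_eq
    rw [mk_mem_touch]
    rintro ⟨_, h3 | h3 | h3 | h3⟩
    · exact hcu h3.symm
    · exact ha.1 h3.symm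
    · exact hcv h3.symm
    · exact ha.2 h3.symm
  rw [sl_comm x u c, sl_comm x v c, sl_comm y u c, sl_comm y v c]
  omega

theorem GRel.pair_aux (huv : u ≠ v) (h : GRel (touch u v) x y) :
    sl x u v = sl y u v ∧
    ∑ c ∈ univ.filter (fun c => c ≠ u ∧ c ≠ v), sl x u c
      = ∑ c ∈ univ.filter (fun c => c ≠ u ∧ c ≠ v), sl y u c ∧
    ∑ c ∈ univ.filter (fun c => c ≠ u ∧ c ≠ v), sl x v c
      = ∑ c ∈ univ.filter (fun c => c ≠ u ∧ c ≠ v), sl y v c := by
  have hu := h.2 u
  have hv := h.2 v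
  rw [deg_eq_sum, deg_eq_sum, sum_split2 huv, sum_split2 huv] at hu hv
  have huu : sl x u u = sl y u u := h.sl_eq (by rw [mk_mem_touch]; simp)
  have hvv : sl x v v = sl y v v := h.sl_eq (by rw [mk_mem_touch]; simp)
  have hsum : ∑ c ∈ univ.filter (fun c => c ≠ u ∧ c ≠ v), (sl x u c + sl x v c)
      = ∑ c ∈ univ.filter (fun c => c ≠ u ∧ c ≠ v), (sl y u c + sl y v c) := by
    refine Finset.sum_congr rfl (fun c hc => ?_)
    simp only [mem_filter, mem_univ, true_and] at hc
    exact h.col huv hc.1 hc.2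
  rw [Finset.sum_add_distrib, Finset.sum_add_distrib] at hsum
  rw [sl_comm x v u, sl_comm y v u] at hv
  refine ⟨?_, ?_, ?_⟩ <;> omega

end pair

end P335h21
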