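import Vale.Agent.Lib.P335_helper14.AvgApi

/-!
P335 (helper21): graph level definitions (states are finsets of slots `Sym2 V`).
-/

namespace P335h21

open Finset P335h14

variable {V : Type*} [Fintype V] [DecidableEq V]

/-- degree of `v` in the slot set `x` -/
def deg (x : Finset (Sym2 V)) (v : V) : ℕ := (x.filter (fun e => v ∈ e)).card

/-- `x` and `y` agree outside the slot set `A` and have the same degrees -/
def GRel (A x y : Finset (Sym2 V)) : Prop := x \ A = y \ A ∧ ∀ v, deg x v = deg y v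

instance (A : Finset (Sym2 V)) : DecidableRel (GRel A) := fun x y => by
  unfold GRel; infer_instance

/-- the non-diagonal slots meeting `{u,v}` -/
def touch (u v : V) : Finset (Sym2 V) := univ.filter (fun e => ¬ e.IsDiag ∧ (u ∈ e ∨ v ∈ e))

/-- the switch `uc, vc' -> uc', vc` is available -/
def GSwOK (x : Finset (Sym2 V)) (u v c c' : V) : Prop :=
  u ≠ v ∧ c ≠ u ∧ c ≠ v ∧ c' ≠ u ∧ c' ≠ v ∧ s(u, c) ∈ x ∧ s(v, c) ∉ x ∧ s(v, c') ∈ x ∧ s(u, c') ∉ x

instance (x : Finset (Sym2 V)) (u v c c' : V) : Decidable (GSwOK x u v c c') := by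
  unfold GSwOK; infer_instance

/-- the switch -/
def gsw (x : Finset (Sym2 V)) (u v c c' : V) : Finset (Sym2 V) :=
  insert s(u, c') (insert s(v, c) ((x.erase s(u, c)).erase s(v, c')))

/-- Dirichlet form of the switches with diagonal `(u,v)` -/
noncomputable def gdir2 (u v : V) (f : Finset (Sym2 V) → ℝ) : ℝ :=
  ∑ x, ∑ c, ∑ c', if GSwOK x u v c c' then (f (gsw x u v c c') - f x) ^ 2 else 0

end P335h21
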